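import Vale.Agent.P180.R2.H47.XW

namespace Vale.Agent.Results.P180.MixedBottom

open Vale.Agent.P180 Vale.Agent.P180.R2.H47 IsLocalRing

universe u

/-- Fix `p` and bounds `n`, `m`. There is a finite list `H 1, …, H r` of finite groups, depending
only on `p`, `n`, `m`, such that:

(1) for every algebraically closed field `k` of characteristic `p` there are blocks `c i` of
`k[H i]` with the following property. Let `G` be a finite group and `b` a block of `kG` with a
defect group `D` of order at most `n`, and suppose that `G` has normal subgroups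
`N 0 ≤ N 1 ≤ ⋯ ≤ N l = G` (`l` arbitrary) such that `N 0` is the direct product of nonabelian simple
subgroups `S j` (any number), where each `S j` is isomorphic to an alternating group (of any
degree), or `D ∩ S j` is cyclic and `|N_G(S j) : S j C_G(S j)|` is at most `m` and prime to `p`, or
`D ∩ S j = 1`, or `S j` satisfies condition (b) below; and each layer `L = N (i + 1) / N i`
satisfies: (a) the image of `D ∩ N (i + 1)` in `L` is central in `L`; or (b) every nonabelian
simple section of `L` of order divisible by `p` has order at most `m` or is of local characteristic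
`p` up to order `n` (and, if `p ≠ 2`, has Sylow `p`-subgroups of order greater than `n`); or (c)
`p = 2` and the centralisers of the involutions of `L` are `2`-groups. Then `kGb` is `k`-linearly
Morita equivalent to one of the `r` block algebras `k[H i](c i)`.

(2) for every complete discrete valuation ring `O` with algebraically closed residue field of
characteristic `p` there are blocks `C i` of `O[H i]` such that the same holds for the blocks of
`OG` and `O`-linear Morita equivalence. -/
theorem result (p : ℕ) [Fact p.Prime] (n m : ℕ) :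
    ∃ (r : ℕ) (H : Fin r → Type) (_ : ∀ i, Group (H i)) (_ : ∀ i, Finite (H i)),
      (∀ (k : Type u) [Field k] [IsAlgClosed k] [CharP k p],
        ∃ (c : ∀ i, MonoidAlgebra k (H i)) (hc : ∀ i, IsBlockR (c i)),
          ∀ (G : Type) [Group G] [Finite G] (b : MonoidAlgebra k G) (hb : IsBlockR b)
            (D : Subgroup G), IsDefectGroupR b D → Nat.card D ≤ n → HasMixedSeries p n m D →
            ∃ i, IsMoritaEquivalent k hb.Alg (hc i).Alg) ∧
      (∀ (O : Type u) [CommRing O] [IsDomain O] [IsDiscreteValuationRing O]
        [IsAdicComplete (maximalIdeal O) O] [IsAlgClosed (ResidueField O)]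
        [CharP (ResidueField O) p],
        ∃ (C : ∀ i, MonoidAlgebra O (H i)) (hC : ∀ i, IsBlockR (C i)),
          ∀ (G : Type) [Group G] [Finite G] (B : MonoidAlgebra O G) (hB : IsBlockR B)
            (D : Subgroup G),
            (IsDefectGroupR B D ∨
              IsDefectGroupR (MonoidAlgebra.mapRingHom G (residue O) B) D) → Nat.card D ≤ n →
            HasMixedSeries p n m D →
            ∃ i, IsMoritaEquivalent O hB.Alg (hC i).Alg) := by
  obtain ⟨r, H, iG, iF, h1, h2⟩ := finalK.{u} (p := p) (n := n) (m := mX p n m)
    (adm_KK R2.H471.QA_isoInv p m) (indK_KK p n m) (H768.Gd.le_mm p n _) (fun k _ _ _ => locK n _ m)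
  refine ⟨r, H, iG, iF, ?_, ?_⟩
  · intro k _ _ _
    obtain ⟨c, hc, h⟩ := h1 k
    refine ⟨c, hc, ?_⟩
    intro G _ _ b hb D hD hn hs
    obtain ⟨X, hXn, l, N, hN, hX, hS, h0, hR, hl, hle, hlay⟩ := mixed_spec hs
    exact h G b hb D hD hn X hX (fun P a hPD hP ha hba hbr =>
      KK_of_defect hX hS hPD hP (I.isBlockR_iff.mp hb) ha hba hbr) l N h0 hR hl hle hlay
  · intro O _ _ _ _ _ _
    obtain ⟨c, hc, h⟩ := h2 O
    refine ⟨c, hc, ?_⟩
    intro G _ _ B hB D hD hn hs
    obtain ⟨X, hXn, l, N, hN, hX, hS, h0, hR, hl, hle, hlay⟩ := mixed_spec hs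
    exact h G B hB D hD hn X hX (fun P a hPD hP ha hba hbr =>
      KK_of_defect hX hS hPD hP (I.isBlock_rd hB).1 ha hba hbr) l N h0 hR hl hle hlay

end Vale.Agent.Results.P180.MixedBottom
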