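import Vale.Agent.P180.R2.H667.Rel

namespace Vale.Agent.Results.P180.RelativeSource

open Vale.Agent.P180 Vale.Agent.P180.R2.H667 IsLocalRing

universe u

/-- Fix `p` and a bound `n`. There is a finite list `H 1, …, H r` of finite groups, depending only
on `p` and `n`, such that:

(1) for every algebraically closed field `k` of characteristic `p` there are blocks `c i` of
`k[H i]` such that every block `b` of `kG`, for every finite group `G`, with the property
`RelSource p n b` is `k`-linearly Morita equivalent to one of the `c i`;

(2) for every complete discrete valuation ring `O` with algebraically closed residue field `k` of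
characteristic `p` there are blocks `C i` of `O[H i]` such that every block `B` of `OG` whose
reduction `b` modulo the maximal ideal has the property `RelSource p n b` is `O`-linearly Morita
equivalent to one of the `C i`.

`RelSource p n b` says that there are normal subgroups `X = N 0 ≤ N 1 ≤ … ≤ N l = G` of `G` such
that each factor `N (j+1) / N j` is a `p`-group, or has order prime to `p`, or has order at most
`c j`, the product of the numbers `c j ≥ 1` being at most `n`, a `p`-subgroup `D` of `G` of order
at most `n` such that `kGb` is a summand of a module induced from the diagonal of `D` (for example,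
a defect group of `b`), and an idempotent `i` of `kX`, centralised by `D`, such that the Brauer
homomorphism at `D` does not kill `i b`, and `i (kX) i` has dimension at most `n`.

Special cases. `X = 1`, `i = 1`: the `p`-solvable groups (the theorem of Külshammer). `X = G`: the
blocks with a source idempotent `i` such that `i kG i` has bounded dimension. In general, no
condition is imposed on the index of `X` in `G`.

(3) `RelSource p n b` holds if `b` is the principal block (its coefficients do not add up to
zero), `X` and `D` are as above, and `D` normalises a subgroup `V` of `X` of order prime to `p`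
such that `X` has at most `n` double cosets `V x V`. -/
theorem result (p : ℕ) [Fact p.Prime] (n : ℕ) :
    ∃ (r : ℕ) (H : Fin r → Type) (_ : ∀ i, Group (H i)) (_ : ∀ i, Finite (H i)),
      (∀ (k : Type u) [Field k] [IsAlgClosed k] [CharP k p],
        ∃ (c : ∀ i, MonoidAlgebra k (H i)) (hc : ∀ i, IsBlockR (c i)),
          ∀ (G : Type) [Group G] [Finite G] (b : MonoidAlgebra k G) (hb : IsBlockR b),
            RelSource p n b → ∃ i, IsMoritaEquivalent k hb.Alg (hc i).Alg) ∧
      (∀ (O : Type u) [CommRing O] [IsDomain O] [IsDiscreteValuationRing O]
        [IsAdicComplete (maximalIdeal O) O] [IsAlgClosed (ResidueField O)]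
        [CharP (ResidueField O) p],
        ∃ (C : ∀ i, MonoidAlgebra O (H i)) (hC : ∀ i, IsBlockR (C i)),
          ∀ (G : Type) [Group G] [Finite G] (B : MonoidAlgebra O G) (hB : IsBlockR B),
            RelSource p n (MonoidAlgebra.mapRingHom G (residue O) B) →
            ∃ i, IsMoritaEquivalent O hB.Alg (hC i).Alg) ∧
      (∀ (k : Type u) [Field k] [IsAlgClosed k] [CharP k p] (G : Type) [Group G] [Finite G]
        (b : MonoidAlgebra k G), IsBlockR b → (b.coeff.sum fun _ c => c) ≠ 0 →
        ∀ X D V : Subgroup G, X.Normal → HasTop p n X → IsPGroup p D →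
          IsSummandOfInducedR b D → Nat.card D ≤ n → V ≤ X → ¬ p ∣ Nat.card V →
          (∀ x ∈ D, ∀ v ∈ V, x * v * x⁻¹ ∈ V) →
          Nat.card (DoubleCoset.Quotient (V.subgroupOf X : Set X) (V.subgroupOf X : Set X)) ≤ n →
          RelSource p n b) := by
  obtain ⟨r, H, iG, iF, h1, h2⟩ := uni_list.{u} p n n n
  refine ⟨r, H, iG, iF, ?_, ?_, ?_⟩
  · intro k _ _ _
    obtain ⟨c, hc, h⟩ := h1 k
    exact ⟨c, hc, fun G _ _ b hb hs => h G b hb (smT_of_rel hb hs)⟩
  · intro O _ _ _ _ _ _
    obtain ⟨C, hC, h⟩ := h2 O
    refine ⟨C, hC, fun G _ _ B hB hs => h G B hB (smT_of_rel ?_ hs)⟩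
    exact I.isBlockR_iff.mpr (I.isBlock_rd hB).1
  · intro k _ _ _ G _ _ b hb hpr X D V hX hT hD hbD hDn hVX hV hDV hdc
    exact relSource_of_dc hX hT hD hDn hbD hVX hV hDV hdc hpr
      (Subalgebra.mem_center_iff.mp hb.central)

end Vale.Agent.Results.P180.RelativeSource
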