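import Vale.Agent.P180.R2.H365.Fin7
import Vale.Agent.P180.R2.H365.LocY
import Vale.Agent.P180.R2.H365.FinJ

namespace Vale.Agent.Results.P180.SourceReduction

open Vale.Agent.P180 Vale.Agent.P180.R2.H365 IsLocalRing

universe u

/-- Reduction of Donovan's conjecture for arbitrary finite groups to source idempotents of blocks of
quasisimple groups. Fix `p` and bounds `n`, `m`. There is a finite list `H 1, …, H r` of finite
groups, depending only on `p`, `n`, `m`, such that:

(1) for every algebraically closed field `k` of characteristic `p` there are blocks `c i` of
`k[H i]` with the following property: every block `b` of every finite group `G` with a defect group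
`D` of order at most `n` is `k`-linearly Morita equivalent to one of the `c i`, or to a block `b'`
of a finite group `G'` that is reduced (see `IsReduced`) and has a defect group `D'` of order at
most `|D|` and a component `L` with `D' ∩ L` not central in `L`, such that

(a) the quotient of `G'` by a solvable normal subgroup `S` is a section of `G`, with `D' S / S`
covered by `D` (see `SecMod`), `L / Z(L)` is a section of the normal closure of `D` in `G`, and the
group of automorphisms of `L` induced by `R = N_D'(L)` is isomorphic to a section of `D`;

(b) the simple group `T = L / Z(L)` has order greater than `m` and is not covered (see `Covered`):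
it is not an alternating group, not a classical group in characteristic `p`, not of local
characteristic `p` up to order `n` (for odd `p`: or has Sylow `p`-subgroups of order at most `n`),
not `PSL_2(K)`, and not a group `PSL_d(K)` (where `p` does not divide `gcd(d, |K| - 1)`, and `4 ∣
|K| - 1` if `p = 2`), `PSp_d(K)`, `PSU_d(K)` or `PΩ_d(K)` (`K` a finite field; for the last three
families `p` is a linear prime not dividing `|K|`; for `PΩ_d(K)` `7 ≤ d`, and `d < p` or `d ≤ m`, `d
≠ 8` if `p = 3`) with `d` as in `TameDim`: either `d < p`, and [`K` has a `p`-th root of unity
different from `1` fixed by the automorphism `θ` of `K` of the form (`θ = 1` except for `PSU_d(K)`),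
or no automorphism of order `p`, or the image of `D' ∩ L` in `T` has exponent `1` or `p`, or `R`
acts trivially on this image]; or [`c`: `R` acts trivially on this image or it is elementary
abelian; or `s`: this image has order less than `p ^ p`, and (`K` has no automorphism of order `p`
or this image has exponent `1` or `p`)] and [`d ≤ m`, or `K` has such a root of unity and `|K| > 9`
(`|K| > 324` for `PSU_d(K)`)];

(c) either `N(L) / L C(L)` is not solvable and has order greater than `m` (by the Schreier
conjecture, a consequence of the classification of finite simple groups, this does not occur), or
the block `f` of `kL` below `b'` satisfies: there is no idempotent `i` of `kLf`, centralised by `R`,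
with `Br_R(i) ≠ 0` and `dim (i kL i) ≤ m`, and moreover `R` does not act on `L` through a cyclic
group as in `CycLev`, and `L`, `D' ∩ L` and the group `Gam D' L` of automorphisms of `L` induced by
`R` are not as in `TameAct`: this group is not cyclic or `p ∣ |Z(L)|`; and if it consists of inner
automorphisms, or if [it acts trivially on the image of `D' ∩ L` in `T` or this image is elementary
abelian] and `L` is a central quotient of a special linear group as in `LinQuot` or (for linear `p`)
it acts by semilinear similitudes on the symplectic, unitary or orthogonal group `L`, then `D' ∩ L`
is not cyclic, `(L, D' ∩ L)` is not as in `ParPair` (a group with a split parabolic system),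
`LevPair` (a group with a small parabolic system and Levi subgroups on whose factors `D' ∩ L` acts
through cyclic groups) or `ClassPair` (a linear or classical group of dimension `d` over a finite
field of characteristic different from `p`, `p` a linear prime, with `d < p`, or with commuting
`p`-elements above `D' ∩ L` and `d ≤ m`, or `p ∣ |K| - 1` and one of: `p ∤ d`, `L` is not a quotient
of `SL_d(K)`, a split torus), and `L` is not as in `CoverPair` (a perfect central extension, for
example a spin group, of an orthogonal group of dimension `d < p` over a field of order greater than
`9`, `6 ≤ d` if this order is even, `p` a linear prime); and `L` is not a symplectic, unitary or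
orthogonal group of dimension `d < p` over a field with a `p`-th root of unity fixed by the field
automorphism of the form, on which `R` acts by semilinear similitudes (see `SimOn`); and `L` is not
a perfect central extension of an orthogonal group of dimension `d < p` on which `R` acts by
semilinear similitudes as in `CoverSim` (and `K` has a `p`-th root of unity different from `1` or
the condition in brackets holds); and `L` has no split parabolic system which is compatible with the
action of `R` as in `ParOut`;

(2) for every complete discrete valuation ring `O` with algebraically closed residue field `k` of
characteristic `p` there are blocks `C i` of `O[H i]` such that the same holds for the blocks of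
`OG` and `O`-linear Morita equivalence. -/
theorem result (p : ℕ) [Fact p.Prime] (n m : ℕ) :
    ∃ (r : ℕ) (H : Fin r → Type) (_ : ∀ i, Group (H i)) (_ : ∀ i, Finite (H i)),
      (∀ (k : Type u) [Field k] [IsAlgClosed k] [CharP k p],
        ∃ (c : ∀ i, MonoidAlgebra k (H i)) (hc : ∀ i, IsBlockR (c i)),
          ∀ (G : Type) [Group G] [Finite G] (b : MonoidAlgebra k G) (hb : IsBlockR b)
            (D : Subgroup G), IsDefectGroupR b D → Nat.card D ≤ n →
            (∃ i, MorB k hb (hc i)) ∨
            ∃ (G' : Type) (_ : Group G') (_ : Finite G') (b' : MonoidAlgebra k G')
              (hb' : IsBlockR b'), MorB k hb hb' ∧
              IsCriticalR (ExcJ (ExcX p n m) D) p (Nat.card D) b') ∧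
      (∀ (O : Type u) [CommRing O] [IsDomain O] [IsDiscreteValuationRing O]
        [IsAdicComplete (maximalIdeal O) O] [IsAlgClosed (ResidueField O)]
        [CharP (ResidueField O) p],
        ∃ (C : ∀ i, MonoidAlgebra O (H i)) (hC : ∀ i, IsBlockR (C i)),
          ∀ (G : Type) [Group G] [Finite G] (B : MonoidAlgebra O G) (hB : IsBlockR B)
            (D : Subgroup G),
            (IsDefectGroupR B D ∨
              IsDefectGroupR (MonoidAlgebra.mapRingHom G (residue O) B) D) → Nat.card D ≤ n →
            (∃ i, MorB O hB (hC i)) ∨
            ∃ (G' : Type) (_ : Group G') (_ : Finite G') (B' : MonoidAlgebra O G')
              (hB' : IsBlockR B'), MorB O hB hB' ∧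
              IsCriticalR (ExcJ (ExcX p n m) D) p (Nat.card D)
                (MonoidAlgebra.mapRingHom G' (residue O) B')) :=
  Vale.Agent.P180.R2.H365.finalJ (uni_T p n _ _) (locY p n m)

end Vale.Agent.Results.P180.SourceReduction
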