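import Vale.Agent.P180.R2.H47.SecB

namespace Vale.Agent.Results.P180.TameSeries

open Vale.Agent.P180 Vale.Agent.P180.R2.H47 IsLocalRing

universe u

/-- Fix `p` and bounds `n`, `m`. There is a finite list `H 1, …, H r` of finite groups, depending
only on `p`, `n`, `m`, such that:

(1) for every algebraically closed field `k` of characteristic `p` there are blocks `c i` of
`k[H i]` with the following property. Let `G` be a finite group and `b` a block of `kG` with a
defect group `D` of order at most `n`, and suppose that `G` has normal subgroups
`N 0 ≤ N 1 ≤ ⋯ ≤ N l` (any number) with `D ≤ N l` such that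

(a) `N 0` is a central product of quasisimple groups `L` (any number, possibly none), and for each
of them: `L / Z(L)` is covered, where `c` says that `N_D(L)` acts trivially on `D ∩ L` modulo `Z(L)`
or that `D ∩ L` is elementary abelian modulo `Z(L)`, `e` that `D ∩ L` has exponent `1` or `p` modulo
`Z(L)`, and `s` that the image of `D ∩ L` in `L / Z(L)` has order less than `p ^ p`; or the action
of `N_D(L)` on `L` is tame for `A = D ∩ L`, and `N_G(L) / L C_G(L)` is solvable or of order at most
`m`; or `D ∩ L ≤ Z(L)`;

(b) for `i < l`, each nonabelian simple section `T` of `N (i + 1) / N i` of order divisible by `p`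
is tame for the image `P` of `D` in `G / N i`: `T` is covered, where `c` says that `P` is abelian or
that all subgroups of `T` which are sections of `P` are elementary abelian, `e` that all these
subgroups have exponent `1` or `p`, and `s` that they have order less than `p ^ p`; or `Out(T)` is
solvable or of order at most `m`, and the `p`-subgroups of `T` are cyclic and `p` does not divide
`|Out(T)|`, or, for all perfect groups `L` with `L / Z(L) ≅ T`, all groups `Γ` of automorphisms of
`L` which are sections of `P`, and all noncentral `p`-subgroups `A` of `L` of order at most `n`
whose elements induce elements of `Γ`, the action of `Γ` on `L` is tame for `A`.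

Here `T` is covered (`Covered`) if `|T| ≤ m`; `T` is an alternating group; `T` is a symplectic,
unitary or orthogonal group in characteristic `p` (`ClassIn`), or of local characteristic `p` up to
order `n` (and `p = 2` or `|T|_p > n`); or, `K` a finite field, `T` is `PSL_d(K)`, and `d = 2` (any
`K`, any `p`), or `K` has characteristic `p` (any `d`), or `d` is as in `TameDim`, `p` does not
divide `gcd(d, |K| - 1)`, and `4` divides `|K| - 1` if `p = 2` (`LinDeg`); or `p` is a linear prime
not dividing `|K|`, `T` is `PSp_d(K)`, `PSU_d(K)`, or an orthogonal group of dimension `d` over `K`,
`7 ≤ d`, and `d < p` or `d ≤ m` (`d ≠ 8` if `p = 3`), and `d` is as in `TameDim`. With `θ` the field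
automorphism of the form (`θ = 1` except for `PSU_d(K)`) and `K'` its fixed field, `TameDim` says:
`d < p`, and [`p` divides `|K'| - 1` or does not divide the degree of `K` over its prime field or
`c` or `e` holds]; or [`c` holds, or `s` holds and (`p` does not divide this degree or `e` holds)],
and [`d ≤ m`, or (`d` arbitrary, `|K| > 9`, for `PSU_d(K)` `|K| > 324`) `p` divides `|K'| - 1`].

The action of `Γ` on `L` is tame for `A` (`TameAct`) if `Γ` is cyclic and `p` does not divide
`|Z(L)|`; or the pair `(L, A)` is tame and `Γ` consists of inner automorphisms or `L` is a quotient
of `SL_d(K)` by scalars, `d` as in `LinDeg`, and (*) `Γ` acts trivially on `A` modulo `Z(L)` or `A`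
is elementary abelian modulo `Z(L)` (`CenOn`); or `L` is the quotient by scalars of a symplectic,
unitary or orthogonal group in dimension `d ≥ 3` on which `Γ` acts by semilinear similitudes
(`SimOn`), and `d < p` and `p` divides `|K'| - 1`, or the pair `(L, A)` is tame, `p` is a linear
prime, and (*); or `L` has a split parabolic system compatible with `Γ` (`ParOut`); or `L` is a
perfect central extension of an orthogonal group of dimension `d`, `4 ≤ d < p`, over a field `K`,
`|K| > 9`, `6 ≤ d` if `|K|` is even, on which `Γ` acts by semilinear similitudes, `p` is a linear
prime, and `p` divides `|K| - 1` or (*) (`CoverSim`).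

A pair `(L, A)` is tame (`TameP`) if `A` is cyclic, or `L` has a split parabolic system for `A`
(`ParPair`), or a small parabolic system and Levi subgroups on whose factors the `p`-subgroups over
`A` act through cyclic groups (`LevPair`), or `L` is a perfect central extension of an orthogonal
group of dimension `d < p` over a field `K`, `|K| > 9`, `6 ≤ d` if `|K|` is even, `p` a linear prime
(`CoverPair`), or `L` is a classical group of dimension `d` over a finite field `K` of
characteristic different from `p` for which `p` is a linear prime: a quotient by scalars of
`SL_d(K)` or of a subgroup of index at most two in the special isometry group of an alternating,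
symmetric or hermitian form (of the whole group, alternating or hermitian if `|K|` is even), and `d
< p`, or the `p`-elements over `A` commute and `d ≤ m`, or they commute and `p` divides `|K'| - 1`
and (for `SL_d(K)`) `p` does not divide `d` or these elements have order dividing `|K| - 1`.

Then `kGb` is `k`-linearly Morita equivalent to one of the `r` block algebras `k[H i](c i)`.

(2) for every complete discrete valuation ring `O` with algebraically closed residue field of
characteristic `p` there are blocks `C i` of `O[H i]` such that the same holds for the blocks of
`OG` and `O`-linear Morita equivalence. -/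
theorem result (p : ℕ) [Fact p.Prime] (n m : ℕ) :
    ∃ (r : ℕ) (H : Fin r → Type) (_ : ∀ i, Group (H i)) (_ : ∀ i, Finite (H i)),
      (∀ (k : Type u) [Field k] [IsAlgClosed k] [CharP k p],
        ∃ (c : ∀ i, MonoidAlgebra k (H i)) (hc : ∀ i, IsBlockR (c i)),
          ∀ (G : Type) [Group G] [Finite G] (b : MonoidAlgebra k G) (hb : IsBlockR b)
            (D : Subgroup G), IsDefectGroupR b D → Nat.card D ≤ n → HasTameSections p n m D →
            ∃ i, IsMoritaEquivalent k hb.Alg (hc i).Alg) ∧
      (∀ (O : Type u) [CommRing O] [IsDomain O] [IsDiscreteValuationRing O]
        [IsAdicComplete (maximalIdeal O) O] [IsAlgClosed (ResidueField O)]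
        [CharP (ResidueField O) p],
        ∃ (C : ∀ i, MonoidAlgebra O (H i)) (hC : ∀ i, IsBlockR (C i)),
          ∀ (G : Type) [Group G] [Finite G] (B : MonoidAlgebra O G) (hB : IsBlockR B)
            (D : Subgroup G),
            (IsDefectGroupR B D ∨
              IsDefectGroupR (MonoidAlgebra.mapRingHom G (residue O) B) D) → Nat.card D ≤ n →
            HasTameSections p n m D →
            ∃ i, IsMoritaEquivalent O hB.Alg (hC i).Alg) :=
  finalT p n m

end Vale.Agent.Results.P180.TameSeries
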